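import Vale.Agent.P063.Defs
import Vale.Agent.P063.Width

/-! The Friedgut-Kalai threshold-width conjecture, for graphs (`r = 2`) and for `r`-uniform
hypergraphs (`r ≥ 3`). -/

open Vale.Agent.P063

theorem Vale.Agent.Results.P063.ThresholdWidth.result :
    ∀ r : ℕ, 2 ≤ r → ∃ C : ℝ, 0 < C ∧ ∀ ε : ℝ, 0 < ε → ε < 1 / 2 →
      ∀ n : ℕ, r ≤ n → ∀ P : Set (Hyp n r), IsProperty P → IsIncreasing P →
        P.Nonempty → P ≠ Set.univ →
        width ε P ≤
          C * Real.log ((1 - ε) / ε) * (Real.log (n : ℝ)) ^ (-((r : ℝ) / ((r : ℝ) - 1))) := by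
  intro r hr
  obtain ⟨C, hC, h⟩ := width_bound r hr
  exact ⟨C, hC, fun ε h0 h1 n hn P hP hinc hne _ => h ε h0 h1 n hn P hP hinc hne⟩
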